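import Vale.Agent.P028.UComb

namespace Vale.Agent.Results.P028.Combined

theorem result (γ : ℝ) (ψ : ℕ → ℝ) (hψ : ∀ q, 0 ≤ ψ q)
    (hdiv : (¬Summable fun q : ℕ =>
        (Nat.totient q : ℝ) / q * min (ψ q) (1 / (q.divisors.card : ℝ) ^ 100000)) ∨
      (∃ θ : ℝ, 0 < θ ∧
        ¬Summable fun q : ℕ => (Nat.totient q : ℝ) / q * min (ψ q) ((q : ℝ) ^ (-θ))) ∨
      (∃ c : ℝ, 1 / 2 < c ∧ ¬Summable fun q : ℕ =>
        (Nat.totient q : ℝ) / q * (ψ q * Real.exp (-(Real.log (q.divisors.card : ℝ) ^ c)))) ∨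
      ∃ c : ℝ, 1 / 2 < c ∧
        ¬Summable fun q : ℕ => ψ q * Real.exp (-(max 0 (Real.log (ψ q)⁻¹) ^ c))) :
    MeasureTheory.volume
      {x : ℝ | {q : ℕ | 0 < q ∧ ∃ a : ℤ, |(q : ℝ) * x - γ - a| < ψ q}.Infinite}ᶜ = 0 := by
  rcases hdiv with h | h | ⟨c, hc, h⟩ | ⟨c, hc, h⟩
  · exact Vale.Agent.Results.P028.DivisorRange.result γ ψ hψ (Or.inl h)
  · exact Vale.Agent.Results.P028.DivisorRange.result γ ψ hψ (Or.inr h)
  · exact Vale.Agent.P028.U.tau_extra γ ψ hψ hc h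
  · exact Vale.Agent.P028.U.extra γ ψ hψ hc h

end Vale.Agent.Results.P028.Combined
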