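import Vale.Agent.P028.TAll

namespace Vale.Agent.Results.P028.DivisorRange

open Filter

theorem result (γ : ℝ) (ψ : ℕ → ℝ) (hψ : ∀ q, 0 ≤ ψ q)
    (hdiv : (¬Summable fun q : ℕ =>
        (Nat.totient q : ℝ) / q * min (ψ q) (1 / (q.divisors.card : ℝ) ^ 100000)) ∨
      ∃ θ : ℝ, 0 < θ ∧ ¬Summable fun q : ℕ => (Nat.totient q : ℝ) / q * min (ψ q) ((q : ℝ) ^ (-θ))) :
    MeasureTheory.volume
      {x : ℝ | {q : ℕ | 0 < q ∧ ∃ a : ℤ, |(q : ℝ) * x - γ - a| < ψ q}.Infinite}ᶜ = 0 := by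
  refine Vale.Agent.P028.T.all_main γ 100000 ψ le_rfl hψ fun hs => ?_
  have hs' : Summable fun q : ℕ =>
      (Nat.totient q : ℝ) / q * min (ψ q) (1 / (q.divisors.card : ℝ) ^ 100000) :=
    hs.congr fun q => by
      rw [Real.rpow_neg (Nat.cast_nonneg _), one_div, ← Real.rpow_natCast]
      norm_num only
  rcases hdiv with h | ⟨θ, hθ, h⟩
  · exact h hs'
  obtain ⟨C, hC, hT⟩ := Vale.Agent.P028.T.tau_pf (θ / (100000 : ℕ)) (by positivity)
  generalize 100000 = K at *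
  have hK : (0 : ℝ) ≤ max 1 (C ^ K) := le_max_of_le_left zero_le_one
  refine h ((hs'.mul_left (max 1 (C ^ K))).of_nonneg_of_le
    (fun q => mul_nonneg (by positivity) (le_min (hψ q) (by positivity))) fun q => ?_)
  rcases q.eq_zero_or_pos with rfl | hq
  · simp
  rw [mul_left_comm, mul_min_of_nonneg _ _ hK]
  refine mul_le_mul_of_nonneg_left (min_le_min (le_mul_of_one_le_left (hψ q) (le_max_left _ _)) ?_)
    (by positivity)
  have q0 : (0 : ℝ) < q := by exact_mod_cast hq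
  have q1 : (1 : ℝ) ≤ q := by exact_mod_cast hq
  have t0 : (0 : ℝ) < q.divisors.card := by
    exact_mod_cast Finset.card_pos.2 ⟨1, Nat.one_mem_divisors.2 hq.ne'⟩
  have a := pow_le_pow_left₀ t0.le (hT q) K
  rw [mul_pow, ← Real.rpow_natCast (_ ^ _), ← Real.rpow_mul q0.le] at a
  have b : (q : ℝ) ^ (θ / K * K) ≤ (q : ℝ) ^ θ := Real.rpow_le_rpow_of_exponent_le q1 (by
    rw [div_mul_eq_mul_div, mul_div_assoc]
    exact mul_le_of_le_one_right hθ.le (div_self_le_one _))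
  rw [Real.rpow_neg q0.le, mul_one_div, le_div_iff₀ (by positivity), inv_mul_le_iff₀ (by positivity),
    mul_comm]
  exact a.trans (mul_le_mul (le_max_right _ _) b (by positivity) hK)

end Vale.Agent.Results.P028.DivisorRange
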