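import Vale.Agent.P028.VMain

namespace Vale.Agent.Results.P028.ErdosVaaler

open Filter

theorem result (γ : ℝ) (ψ : ℕ → ℝ) (hψ : ∀ q, 0 ≤ ψ q)
    (hdiv : ¬Summable fun q : ℕ => (Nat.totient q : ℝ) / q * min (ψ q) (1 / q)) :
    MeasureTheory.volume
      {x : ℝ | {q : ℕ | 0 < q ∧ ∃ a : ℤ, |(q : ℝ) * x - γ - a| < ψ q}.Infinite}ᶜ = 0 := by
  have h := Vale.Agent.P028.V.main γ (fun q => min (ψ q) (1 / q))
    (fun q => le_min (hψ q) (by positivity)) (fun q => min_le_right _ _) fun hs => hdiv (by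
      refine (summable_nat_add_iff 1).1 (((summable_nat_add_iff 1).2 hs).congr fun q => ?_)
      rw [Vale.Agent.P028.V.w_eq q.succ_pos])
  refine MeasureTheory.mem_ae_iff.1 (h.mono fun x h => ?_)
  exact Nat.frequently_atTop_iff_infinite.1
    ((Frequently.and_eventually h (eventually_gt_atTop 0)).mono fun q ⟨⟨a, ha⟩, hq⟩ =>
      ⟨hq, a, ha.trans_le (min_le_left _ _)⟩)

end Vale.Agent.Results.P028.ErdosVaaler
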