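import Vale.Agent.P028.XMain

namespace Vale.Agent.Results.P028.ExtraDiv

open Filter

theorem result (c : ℝ) (hc : 1 / 2 < c) (γ ψ : ℕ → ℝ) (hψ : ∀ q, 0 ≤ ψ q)
    (hdiv : ¬Summable fun q : ℕ => ψ q * Real.exp (-(max 0 (Real.log (ψ q)⁻¹) ^ c))) :
    MeasureTheory.volume
      {x : ℝ | {q : ℕ | 0 < q ∧ ∃ a : ℤ, |(q : ℝ) * x - γ q - a| < ψ q}.Infinite}ᶜ = 0 := by
  refine MeasureTheory.mem_ae_iff.1 ((Vale.Agent.P028.X.main hc γ ψ hψ hdiv).mono fun x h => ?_)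
  exact Nat.frequently_atTop_iff_infinite.1
    ((Frequently.and_eventually h (eventually_gt_atTop 0)).mono fun q hq => ⟨hq.2, hq.1⟩)

end Vale.Agent.Results.P028.ExtraDiv
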